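import Vale.Agent.Lib.P309.Final

/-!
# P309: `d log(1/ε)` samples are necessary for every learner with `O(d^2)` bits
-/

namespace Vale.Agent.Results.P309.MemoryPrecision

open MeasureTheory Vale.Agent.P309

/-- For every `K` there are `c, ε₀ > 0` and `d₀` such that every (randomised, adaptively stopping)
learner with `M ≤ K d^2` bits which succeeds at accuracy `ε ≤ ε₀` in dimension `d ≥ d₀` with
horizon `T` has `T ≥ c d log (1/ε)`. -/
theorem result : ∀ K : ℝ, 0 < K → ∃ c : ℝ, 0 < c ∧ ∃ ε₀ : ℝ, 0 < ε₀ ∧ ∃ d₀ : ℕ,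
    ∀ (d M T : ℕ) (ε : ℝ), d₀ ≤ d → 0 < ε → ε ≤ ε₀ → (M : ℝ) ≤ K * d ^ 2 →
    ∀ (Ω : Type) [MeasurableSpace Ω] (P : Measure Ω) [IsProbabilityMeasure P]
      (A : Learner d M Ω), A.Succeeds T P ε → c * d * Real.log (1 / ε) ≤ T :=
  final

end Vale.Agent.Results.P309.MemoryPrecision
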